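import Vale.Agent.P088.R2.H551.B.Spec
import Vale.Agent.P088.R2.H808.RowBInf
import Vale.Agent.P088.H397.KInf

/-!
# P088, two pairs without condition at the boundary, row JB-INF: contact of infinite order of
metric and connection at the boundary, general base tensor `s`
-/

open MeasureTheory Set Filter Topology
open scoped ContDiff Matrix

noncomputable section

namespace Vale.Agent.P088.R2.H606

open Vale.Agent.P088.LR Vale.Agent.P088.LR.B Vale.Agent.P088.LR.CF Vale.Agent.P088.LR.U
  Vale.Agent.P088.LR.H158 Vale.Agent.P088.H639 Vale.Agent.P088.H397 Vale.Agent.P088.H397.KI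
  Vale.Agent.P088.R2.H808 Vale.Agent.P088.PJ.Bd
open Vale.Agent.P088.LR.K (Dat Sma gA)

variable {n N : ℕ}

/-- Contact of infinite order, abstract form. -/
theorem infJ (hhad : RowHAD) (htopo : RowTOPO) {ρ : V n → ℝ} (D : Dom ρ)
    {s t : MF n} (hsm : SmM s) (ht : SmM t) (hss : ∀ x i j, s x i j = s x j i)
    (hpos : ∀ x i j, t x i j = t x j i)
    {A₁ A : Cn n N} (hA₁ : ∀ i, SmC (A₁ i)) (hA : ∀ i, SmC (A i))
    {G : Fin n → Fin n → V n → ℝ} (hG : ∀ a i, ContDiff ℝ ∞ (G a i))
    (hinv : ∀ x, ρ x = 0 → ∀ v : Fin n → ℝ, (∀ a, ∑ i, G a i x * v i = 0) → ∀ i, v i = 0)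
    (hnor : ∀ i x, ρ x = 0 → ∑ j, (t x i j - s x i j) * pd j ρ x = 0)
    (hdiv : ∀ a (m : ℕ), ∃ r > 0, ∃ E : V n → ℝ, ContDiff ℝ ∞ E ∧ ∀ x, |ρ x| < r →
      ∑ j, pd j (fun y => ∑ i, (t y j i - s y j i) * G a i y) x = ρ x ^ m * E x)
    (htg : ∀ m : ℕ, ∃ r > 0, ∃ E : MC n N, SmC E ∧ ∀ x, |ρ x| < r →
      ∑ i, ((pd i ρ x : ℝ) : ℂ) • (A i x - A₁ i x) = ((ρ x ^ m : ℝ) : ℂ) • E x)
    (step : ∀ (m : ℕ) (b : Fin n → Fin n → V n → ℝ) (a : Fin n → MC n N),
      (∀ i j, ContDiff ℝ ∞ (b i j)) → (∀ i, SmC (a i)) →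
      (∀ i j x, b i j x = b j i x) → (∀ x i j, t x i j - s x i j = ρ x ^ m * b i j x) →
      (∀ i x, ((ρ x : ℝ) : ℂ) • (A i x - A₁ i x) = ((ρ x ^ m : ℝ) : ℂ) • a i x) →
      (∀ x, ρ x = 0 → ∀ i, ∑ j, b i j x * pd j ρ x = 0) →
      (∀ x, ρ x = 0 → ∑ i, ((pd i ρ x : ℝ) : ℂ) • a i x = 0) →
      ∀ x, ρ x = 0 → (∀ i j, b i j x = 0) ∧ ∀ i, a i x = 0) :
    ∀ m : ℕ, (∃ b : Fin n → Fin n → V n → ℝ, (∀ i j, ContDiff ℝ ∞ (b i j)) ∧
      ∀ x i j, t x i j - s x i j = ρ x ^ m * b i j x) ∧
      ∃ a : Fin n → MC n N, (∀ i, SmC (a i)) ∧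
        ∀ i x, ((ρ x : ℝ) : ℂ) • (A i x - A₁ i x) = ((ρ x ^ m : ℝ) : ℂ) • a i x := by
  have hd : Dense {x | ρ x ≠ 0} := (htopo ρ D).2.2.2.2.2
  intro m
  induction m with
  | zero =>
    refine ⟨⟨fun i j x => t x i j - s x i j,
      fun i j => (ht i j).sub (hsm i j), fun x i j => by simp⟩,
      fun i x => ((ρ x : ℝ) : ℂ) • (A i x - A₁ i x), fun i α β => ?_, fun i x => by simp⟩
    simp only [Matrix.smul_apply, Matrix.sub_apply, smul_eq_mul]
    exact (Complex.ofRealCLM.contDiff.comp D.sm).mul ((hA i α β).sub (hA₁ i α β))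
  | succ m ih =>
    obtain ⟨⟨b, hb, he⟩, a, ha, hea⟩ := ih
    have hsym : ∀ i j x, b i j x = b j i x := by
      intro i j x
      have : b i j x - b j i x = 0 := by
        refine eq_of_dense (F := fun y => b i j y - b j i y) hd D.sm.continuous (r := |ρ x| + 1)
          (by positivity) ((hb i j).continuous.sub (hb j i).continuous) (fun y hy _ => ?_)
          (by linarith)
        have h1 := he y i j
        have h2 := he y j i
        rw [hpos y, hss y] at h1
        have h3 : ρ y ^ m * (b i j y - b j i y) = 0 := by rw [mul_sub, ← h1, ← h2, sub_self]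
        exact (mul_eq_zero.1 h3).resolve_left (pow_ne_zero m hy)
      linarith
    have hnu : ∀ x, ρ x = 0 → ∑ i, ((pd i ρ x : ℝ) : ℂ) • a i x = 0 := by
      intro x hx
      obtain ⟨r, hr, E, hE, hEe⟩ := htg m
      ext α β
      have hF : Continuous (fun y => (∑ i, ((pd i ρ y : ℝ) : ℂ) * a i y α β) -
          ((ρ y : ℝ) : ℂ) * E y α β) := by
        have c1 : ∀ i, Continuous (fun y => a i y α β) := fun i => (ha i α β).continuous
        have c2 : ∀ i, Continuous (fun y => ((pd i ρ y : ℝ) : ℂ)) := fun i =>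
          Complex.continuous_ofReal.comp (cont_pd D.sm i)
        have c3 : Continuous (fun y => ((ρ y : ℝ) : ℂ)) :=
          Complex.continuous_ofReal.comp D.sm.continuous
        have c4 : Continuous (fun y => E y α β) := (hE α β).continuous
        fun_prop
      have hz := eq_of_denseC hd D.sm.continuous (r := r) hF (fun y hy hyr => ?_)
        (x := x) (by simpa [hx] using hr)
      · have hz' : ∑ i, ((pd i ρ x : ℝ) : ℂ) * a i x α β = 0 := by simpa [hx] using hz
        rw [Matrix.sum_apply]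
        simpa using hz'
      · have e1 : ∑ i, ((pd i ρ y : ℝ) : ℂ) * (A i y α β - A₁ i y α β) =
            ((ρ y ^ m : ℝ) : ℂ) * E y α β := by
          have := congrFun (congrFun (hEe y hyr) α) β
          rw [Matrix.sum_apply] at this
          simpa using this
        have e2 : ∀ i, ((ρ y : ℝ) : ℂ) * (A i y α β - A₁ i y α β) =
            ((ρ y ^ m : ℝ) : ℂ) * a i y α β := fun i => by
          simpa using congrFun (congrFun (hea i y) α) β
        have hne : ((ρ y ^ m : ℝ) : ℂ) ≠ 0 := by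
          exact_mod_cast pow_ne_zero m hy
        have h3 : ((ρ y ^ m : ℝ) : ℂ) * ((∑ i, ((pd i ρ y : ℝ) : ℂ) * a i y α β) -
            ((ρ y : ℝ) : ℂ) * E y α β) = 0 := by
          rw [mul_sub, Finset.mul_sum]
          have h4 : ∑ i, ((ρ y ^ m : ℝ) : ℂ) * (((pd i ρ y : ℝ) : ℂ) * a i y α β) =
              ((ρ y : ℝ) : ℂ) * ∑ i, ((pd i ρ y : ℝ) : ℂ) * (A i y α β - A₁ i y α β) := by
            rw [Finset.mul_sum]
            refine Finset.sum_congr rfl fun i _ => ?_
            linear_combination -((pd i ρ y : ℝ) : ℂ) * e2 i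
          rw [h4, e1]
          ring
        exact (mul_eq_zero.1 h3).resolve_left hne
    have hz := step m b a hb ha hsym he hea (fun x hx i =>
      normalS D.sm hd hb hsym hG hinv he hnor (fun a => hdiv a m) x hx i) hnu
    have hg := fun i j => hhad ρ D.sm D.nz (b i j) (hb i j) (fun x hx => (hz x hx).1 i j)
    choose g hg1 hg2 using hg
    have hl := fun i => hadM hhad D (ha i) (fun x hx => (hz x hx).2 i)
    choose l hl1 hl2 using hl
    refine ⟨⟨g, hg1, fun x i j => by rw [he x i j, hg2 i j x, pow_succ, mul_assoc]⟩,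
      l, hl1, fun i x => ?_⟩
    rw [hea i x, hl2 i x, smul_smul]
    congr 1
    push_cast
    ring

/-- Row JB-INF, with the rows HAD and TOPO as arguments. -/
theorem jinf (hhad : RowHAD) (hbd : PJ.Bd.RowBD) (htopo : RowTOPO) : PJ.Bd.RowINF := by
  intro n N ρ hn hN D
  obtain ⟨k, ε, hε, hB⟩ := hbd N ρ hn hN D
  refine ⟨k, ε, hε, fun s t A₁ A hs ht hsp hts hA₁ hA hsma hdat w₁ hw₁ hdet hnor hd1 hd2 htg => ?_⟩
  have hd : Dense {x | ρ x ≠ 0} := (htopo ρ D).2.2.2.2.2
  have hsym : ∀ x i j, t x i j = t x j i := fun x i j => ((hts x).apply i j).symm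
  have hss : ∀ x i j, s x i j = s x j i := fun x i j => by
    simpa using ((hsp x).1.apply i j).symm
  have hX : ∀ a, ContDiff ℝ ∞ (fun y : V n => y a + w₁ y a) := fun a =>
    (contDiff_apply ℝ ℝ a).add (contDiff_pi.1 hw₁ a)
  have hG : ∀ a i, ContDiff ℝ ∞ (pd i (fun y : V n => y a + w₁ y a)) := fun a i => by
    have h := (hX a).fderiv_right (m := ∞) (by simp)
    exact h.clm_apply contDiff_const
  have hinv : ∀ x, ρ x = 0 → ∀ v : Fin n → ℝ,
      (∀ a, ∑ i, pd i (fun y : V n => y a + w₁ y a) x * v i = 0) → ∀ i, v i = 0 := by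
    intro x hx v hv
    have h1 : (jm w₁ x).mulVec v = 0 := by
      funext a
      have := hv a
      simp only [Vale.Agent.P088.LR.B.H158.pd_H hw₁] at this
      simpa [Matrix.mulVec, dotProduct] using this
    have h2 := Matrix.eq_zero_of_mulVec_eq_zero (hdet x hx) h1
    intro i
    rw [h2]
    rfl
  have key := infJ hhad htopo D hs ht hss hsym (A₁ := A₁) (A := A) (fun i a b => hA₁.1 i a b)
    (fun i a b => hA.1 i a b) (G := fun a i => pd i (fun y : V n => y a + w₁ y a))
    hG hinv ?_ ?_ htg ?_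
  · intro m
    refine ⟨?_, ?_⟩
    · obtain ⟨b, hb, he⟩ := (key m).1
      exact ⟨b, hb, fun x i j => he x i j⟩
    · obtain ⟨a, ha, he⟩ := (key (m + 1)).2
      refine ⟨a, ha, fun i x => ?_⟩
      ext α β
      have hz := eq_of_denseC hd D.sm.continuous (r := |ρ x| + 1) (x := x)
        (F := fun y => (A i y α β - A₁ i y α β) - ((ρ y ^ m : ℝ) : ℂ) * a i y α β) ?_
        (fun y hy _ => ?_) (by linarith)
      · have := sub_eq_zero.1 hz
        simpa using this
      · have c1 : Continuous (fun y => A i y α β) := (hA.1 i α β).continuous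
        have c2 : Continuous (fun y => A₁ i y α β) := (hA₁.1 i α β).continuous
        have c3 : Continuous (fun y => ((ρ y ^ m : ℝ) : ℂ)) :=
          Complex.continuous_ofReal.comp (D.sm.continuous.pow m)
        have c4 : Continuous (fun y => a i y α β) := (ha i α β).continuous
        fun_prop
      · have e : ((ρ y : ℝ) : ℂ) * (A i y α β - A₁ i y α β) =
            ((ρ y ^ (m + 1) : ℝ) : ℂ) * a i y α β := by
          simpa using congrFun (congrFun (he i y) α) β
        have hne : ((ρ y : ℝ) : ℂ) ≠ 0 := by exact_mod_cast hy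
        have h3 : ((ρ y : ℝ) : ℂ) *
            ((A i y α β - A₁ i y α β) - ((ρ y ^ m : ℝ) : ℂ) * a i y α β) = 0 := by
          rw [mul_sub, e]
          push_cast
          ring
        exact (mul_eq_zero.1 h3).resolve_left hne
  · intro i x hx
    refine hinv x hx (fun i => ∑ j, (t x i j - s x i j) * pd j ρ x) (fun a => ?_) i
    have h := hnor a x hx
    simp only [gr] at h
    rw [← sub_eq_zero] at h
    rw [← h, ← Finset.sum_sub_distrib]
    refine Finset.sum_congr rfl fun i _ => ?_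
    rw [← Finset.sum_sub_distrib, Finset.mul_sum]
    exact Finset.sum_congr rfl fun j _ => by ring
  · intro a m
    obtain ⟨r1, hr1, E1, hE1, h1⟩ := hd1 a m
    obtain ⟨r2, hr2, E2, hE2, h2⟩ := hd2 a m
    refine ⟨min r1 r2, lt_min hr1 hr2, fun x => E1 x - E2 x, hE1.sub hE2, fun x hx => ?_⟩
    have e1 := h1 x (hx.trans_le (min_le_left _ _))
    have e2 := h2 x (hx.trans_le (min_le_right _ _))
    rw [mul_sub, ← e1, ← e2]
    unfold dr
    rw [← Finset.sum_sub_distrib]
    refine Finset.sum_congr rfl fun j _ => ?_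
    have dA : DifferentiableAt ℝ (fun y => ∑ i, t y j i * pd i (fun y : V n => y a + w₁ y a) y) x :=
      ((ContDiff.sum fun i _ => (ht j i).mul (hG a i)).differentiable (by simp)).differentiableAt
    have dB : DifferentiableAt ℝ
        (fun y => ∑ i, s y j i * pd i (fun y : V n => y a + w₁ y a) y) x :=
      ((ContDiff.sum fun i _ => (hs j i).mul (hG a i)).differentiable
        (by simp)).differentiableAt
    have e : (fun y => ∑ i, (t y j i - s y j i) * pd i (fun y : V n => y a + w₁ y a) y) =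
        fun y => (∑ i, t y j i * pd i (fun y : V n => y a + w₁ y a) y) -
          ∑ i, s y j i * pd i (fun y : V n => y a + w₁ y a) y := by
      funext y
      rw [← Finset.sum_sub_distrib]
      exact Finset.sum_congr rfl fun i _ => by ring
    rw [e]
    unfold pd at dA dB ⊢
    have := fderiv_sub dA dB
    rw [show (fun y => (∑ i, t y j i * fderiv ℝ (fun y : V n => y a + w₁ y a) y
        (Pi.single i 1)) - ∑ i, s y j i * fderiv ℝ (fun y : V n => y a + w₁ y a) y
        (Pi.single i 1)) = (fun y => ∑ i, t y j i * fderiv ℝ (fun y : V n => y a + w₁ y a) y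
        (Pi.single i 1)) - fun y => ∑ i, s y j i * fderiv ℝ (fun y : V n => y a + w₁ y a) y
        (Pi.single i 1) from rfl, this]
    rfl
  · intro m b a hb ha hbs he hea hb1 ha1 x hx
    exact hB s t A₁ A hs ht hsp hts hA₁ hA hsma hdat m b a hb ha hbs
      (fun i j x => he x i j) hea hb1 ha1 x hx

/-- Row JB-INF. -/
theorem rowINF (hbd : PJ.Bd.RowBD) : PJ.Bd.RowINF :=
  jinf H641.rowHAD hbd Vale.Agent.P088.H873.topo

end Vale.Agent.P088.R2.H606
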